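import Vale.Agent.Lib.P125.LpSum
import Vale.Agent.Lib.P125.Glue

/-!
# P125: Q1 is equivalent to a uniform statement about finite-dimensional spaces

Q1 (every Banach space with Markov type `p > 1` is superreflexive) holds if and only if for all
`p > 1`, `K > 0` there are constants `a, b > 0` and ONE modulus `δ` such that every
finite-dimensional normed space with Markov type `p`, constant `K`, has a norm `N` with
`a ‖x‖ ≤ N x ≤ b ‖x‖` that is uniformly convex with modulus `δ`.
The second clause records the closure property used: `ℓ_p`-sums keep Markov type `p` with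
the same constant.
-/

namespace Vale.Agent.Results.P125.LocalReformulation

open Vale.Agent.P125

universe u

theorem result :
    ((∀ (X : Type u) [NormedAddCommGroup X] [NormedSpace ℝ X] [CompleteSpace X],
        (∃ p K : ℝ, 1 < p ∧ 0 < K ∧ MarkovType X p K) → Superreflexive X)
      ↔
      (∀ p K : ℝ, 1 < p → 0 < K →
        ∃ (a b : ℝ) (δ : ℝ → ℝ), 0 < a ∧ 0 < b ∧ (∀ ε, 0 < ε → 0 < δ ε) ∧
          ∀ (X : Type u) [NormedAddCommGroup X] [NormedSpace ℝ X] [FiniteDimensional ℝ X],
            MarkovType X p K → UCRenorm X a b δ))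
    ∧
    (∀ (ι : Type u) (E : ι → Type u) [∀ i, NormedAddCommGroup (E i)] (p K : ℝ)
        [Fact (1 ≤ ENNReal.ofReal p)], 1 ≤ p → (∀ i, MarkovType (E i) p K) →
        MarkovType (lp E (ENNReal.ofReal p)) p K) := by
  refine ⟨⟨?_, ?_⟩, ?_⟩
  · intro hQ p K hp hK
    by_contra hcon
    push Not at hcon
    classical
    let I := {i : ℝ × ℝ × (ℝ → ℝ) // 0 < i.1 ∧ 0 < i.2.1 ∧ ∀ ε, 0 < ε → 0 < i.2.2 ε}
    have hbad : ∀ i : I, ∃ (X : Type u) (_ : NormedAddCommGroup X) (_ : NormedSpace ℝ X),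
        FiniteDimensional ℝ X ∧ MarkovType X p K ∧ ¬ UCRenorm X i.1.1 i.1.2.1 i.1.2.2 :=
      fun i => hcon i.1.1 i.1.2.1 i.1.2.2 i.2.1 i.2.2.1 i.2.2.2
    choose X g s fd hMT hno using hbad
    have : Fact (1 ≤ ENNReal.ofReal p) := ⟨by
      rw [← ENNReal.ofReal_one]; exact ENNReal.ofReal_le_ofReal hp.le⟩
    have : ∀ i, CompleteSpace (X i) := fun i => by
      have := fd i
      exact FiniteDimensional.complete ℝ (X i)
    have hY : MarkovType (lp X (ENNReal.ofReal p)) p K := MarkovType.lp_sum hp.le hMT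
    have hS := hQ (lp X (ENNReal.ofReal p)) ⟨p, K, hp, hK, hY⟩
    obtain ⟨a, b, δ, ha, hb, hδ, hR⟩ := superreflexive_iff.mp hS
    let i0 : I := ⟨(a, b, δ), ha, hb, hδ⟩
    have hpos : 0 < ENNReal.ofReal p := ENNReal.ofReal_pos.mpr (by linarith)
    exact hno i0 (UCRenorm.of_isometry (lp.lsingle (𝕜 := ℝ) (ENNReal.ofReal p) i0)
      (fun x => lp.norm_single hpos i0 x) hR)
  · rintro hF X _ _ _ ⟨p, K, hp, hK, hMT⟩
    obtain ⟨a, b, δ, ha, hb, hδ, h⟩ := hF p K hp hK
    refine superreflexive_iff.mpr ⟨a, b, fun ε => δ (ε / 2), ha, hb,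
      fun ε hε => hδ _ (by linarith), ?_⟩
    refine UCRenorm.of_finiteDimensional hb.le fun F hFd => ?_
    have := hFd
    exact h F (MarkovType.of_isometry F.subtype (fun x => rfl) hMT)
  · intro ι E _ p K _ hp h
    exact MarkovType.lp_sum hp h

end Vale.Agent.Results.P125.LocalReformulation
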